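import Vale.Agent.P066.Main

namespace Vale.Agent.Results.P066.CliqueThree

open Vale.Agent.P066

theorem result (n : ℕ) (h : Fin n → Fin n) (hm : Monotone h) (hh : ∀ i, i ≤ h i)
    (h2 : ∀ i, (h i).val ≤ i.val + 2) :
    ∃ c : n.Partition → Polynomial ℤ, (∀ μ k, 0 ≤ (c μ).coeff k) ∧
      ∀ N : ℕ, chi h N =
        ∑ μ, MvPolynomial.C (c μ) * MvPolynomial.esymmPart (Fin N) (Polynomial ℤ) μ :=
  main h hm hh h2

end Vale.Agent.Results.P066.CliqueThree
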